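import Mathlib

namespace Vale.Agent.P069L

/-- `N` is an equivalent norm on the real normed space `X`: it is subadditive, absolutely
homogeneous, and comparable with the given norm up to positive constants. -/
def IsEquivNorm {X : Type*} [NormedAddCommGroup X] [NormedSpace ℝ X] (N : X → ℝ) : Prop :=
  (∀ x y, N (x + y) ≤ N x + N y) ∧ (∀ (a : ℝ) (x : X), N (a • x) = |a| * N x) ∧
    ∃ c C : ℝ, 0 < c ∧ 0 < C ∧ ∀ x, c * ‖x‖ ≤ N x ∧ N x ≤ C * ‖x‖

/-- `N` is asymptotically uniformly convex: for every `t > 0` the modulus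
`inf_{N x = 1} sup_{F closed, finite codimension} inf_{y ∈ F, N y = 1} (N (x + t y) - 1)` is positive,
written out with quantifiers. -/
def IsAUC {X : Type*} [NormedAddCommGroup X] [NormedSpace ℝ X] (N : X → ℝ) : Prop :=
  ∀ t : ℝ, 0 < t → ∃ δ : ℝ, 0 < δ ∧ ∀ x : X, N x = 1 →
    ∃ F : Submodule ℝ X, IsClosed (F : Set X) ∧ FiniteDimensional ℝ (X ⧸ F) ∧
      ∀ y ∈ F, N y = 1 → 1 + δ ≤ N (x + t • y)

/-- `N` is asymptotically midpoint uniformly convex: same with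
`max (N (x + t y)) (N (x - t y))` in place of `N (x + t y)`. -/
def IsAMUC {X : Type*} [NormedAddCommGroup X] [NormedSpace ℝ X] (N : X → ℝ) : Prop :=
  ∀ t : ℝ, 0 < t → ∃ δ : ℝ, 0 < δ ∧ ∀ x : X, N x = 1 →
    ∃ F : Submodule ℝ X, IsClosed (F : Set X) ∧ FiniteDimensional ℝ (X ⧸ F) ∧
      ∀ y ∈ F, N y = 1 → 1 + δ ≤ max (N (x + t • y)) (N (x - t • y))

end Vale.Agent.P069L
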