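import Mathlib

namespace Vale.Agent.P069L

open scoped ENNReal lp

noncomputable section

/-- A real normed space is reflexive when the canonical map into its bidual is onto. -/
def IsReflexiveSpace (E : Type*) [NormedAddCommGroup E] [NormedSpace ℝ E] : Prop :=
  Function.Surjective (NormedSpace.inclusionInDoubleDual ℝ E)

section basic

variable {E F : Type*} [NormedAddCommGroup E] [NormedSpace ℝ E]
  [NormedAddCommGroup F] [NormedSpace ℝ F]

theorem IsReflexiveSpace.of_equiv (e : E ≃L[ℝ] F) (h : IsReflexiveSpace E) :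
    IsReflexiveSpace F := by
  intro Φ
  let P : StrongDual ℝ E →L[ℝ] StrongDual ℝ F :=
    (ContinuousLinearMap.compL ℝ F E ℝ).flip (e.symm : F →L[ℝ] E)
  obtain ⟨x, hx⟩ := h (Φ.comp P)
  refine ⟨e x, ?_⟩
  ext ψ
  have h1 := congrArg (fun Ψ => Ψ (ψ.comp (e : E →L[ℝ] F))) hx
  simp only [NormedSpace.dual_def, ContinuousLinearMap.comp_apply] at h1 ⊢
  have h2 : P (ψ.comp (e : E →L[ℝ] F)) = ψ := by
    ext y
    simp [P]
  rw [h2] at h1
  simpa using h1

theorem IsReflexiveSpace.dual (h : IsReflexiveSpace E) : IsReflexiveSpace (StrongDual ℝ E) := by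
  intro Θ
  refine ⟨Θ.comp (NormedSpace.inclusionInDoubleDual ℝ E), ?_⟩
  ext Φ
  obtain ⟨y, rfl⟩ := h Φ
  simp [NormedSpace.dual_def]

theorem isReflexiveSpace_real : IsReflexiveSpace ℝ := by
  intro Φ
  refine ⟨Φ (ContinuousLinearMap.id ℝ ℝ), ?_⟩
  ext ψ
  have h : ψ = (ψ 1) • ContinuousLinearMap.id ℝ ℝ := by
    ext
    simp
  rw [NormedSpace.dual_def]
  conv_rhs => rw [h]
  rw [map_smul]
  have : ψ (Φ (ContinuousLinearMap.id ℝ ℝ)) = Φ (ContinuousLinearMap.id ℝ ℝ) * ψ 1 := by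
    conv_lhs => rw [← mul_one (Φ (ContinuousLinearMap.id ℝ ℝ))]
    rw [← smul_eq_mul, map_smul, smul_eq_mul]
  rw [this, smul_eq_mul, mul_comm]

end basic

end

end Vale.Agent.P069L
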