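import Mathlib
import Vale.Agent.P069L.Defs
import Vale.Agent.P069L.Reflexive

namespace Vale.Agent.P069L

open scoped ENNReal lp

noncomputable section

/-- Nodes of the countably branching tree are lists of naturals; the parent of `a :: l` is `l`,
the root is `[]`. `psum n f l` is the sum of `f` over the ancestors of `l` (including `l`) of depth
at most `n`. -/
def psum (n : ℕ) (f : List ℕ → ℝ) : List ℕ → ℝ
  | [] => f []
  | (a :: l) => (if (a :: l).length ≤ n then f (a :: l) else 0) + psum n f l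

theorem psum_nil (n : ℕ) (f : List ℕ → ℝ) : psum n f [] = f [] := rfl

theorem psum_cons (n : ℕ) (f : List ℕ → ℝ) (a : ℕ) (l : List ℕ) :
    psum n f (a :: l) = (if (a :: l).length ≤ n then f (a :: l) else 0) + psum n f l := rfl

theorem psum_add (n : ℕ) (f g : List ℕ → ℝ) (l : List ℕ) :
    psum n (fun m => f m + g m) l = psum n f l + psum n g l := by
  induction l with
  | nil => simp [psum_nil]
  | cons a l ih =>
    rw [psum_cons, psum_cons, psum_cons, ih]
    split_ifs <;> ring

theorem psum_smul (n : ℕ) (c : ℝ) (f : List ℕ → ℝ) (l : List ℕ) :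
    psum n (fun m => c * f m) l = c * psum n f l := by
  induction l with
  | nil => simp [psum_nil]
  | cons a l ih =>
    rw [psum_cons, psum_cons, ih]
    split_ifs <;> ring

theorem psum_zero (n : ℕ) (l : List ℕ) : psum n (fun _ => 0) l = 0 := by
  induction l with
  | nil => simp [psum_nil]
  | cons a l ih => rw [psum_cons, ih]; simp

theorem abs_psum_le (n : ℕ) (f : List ℕ → ℝ) (M : ℝ) (hM : ∀ m, |f m| ≤ M) (l : List ℕ) :
    |psum n f l| ≤ (min l.length n + 1 : ℕ) * M := by
  have hM0 : 0 ≤ M := le_trans (abs_nonneg _) (hM [])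
  induction l with
  | nil => simpa [psum_nil] using hM []
  | cons a l ih =>
    rw [psum_cons]
    by_cases h : (a :: l).length ≤ n
    · rw [if_pos h]
      have h1 : min (a :: l).length n = min l.length n + 1 := by
        simp only [List.length_cons] at h ⊢
        omega
      rw [h1]
      calc |f (a :: l) + psum n f l| ≤ |f (a :: l)| + |psum n f l| := abs_add_le _ _
        _ ≤ M + (min l.length n + 1 : ℕ) * M := add_le_add (hM _) ih
        _ = (min l.length n + 1 + 1 : ℕ) * M := by push_cast; ring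
    · rw [if_neg h, zero_add]
      have h1 : min (a :: l).length n = min l.length n := by
        simp only [List.length_cons] at h ⊢
        omega
      rw [h1]
      exact ih

theorem abs_psum_le' (n : ℕ) (f : List ℕ → ℝ) (M : ℝ) (hM : ∀ m, |f m| ≤ M) (l : List ℕ) :
    |psum n f l| ≤ (n + 1 : ℕ) * M := by
  have hM0 : 0 ≤ M := le_trans (abs_nonneg _) (hM [])
  refine (abs_psum_le n f M hM l).trans ?_
  gcongr
  exact min_le_right _ _

abbrev L2 : Type := lp (fun _ : List ℕ => ℝ) 2
abbrev Linf : Type := lp (fun _ : List ℕ => ℝ) ∞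

/-- `Yn n` is `ℓ²(tree)` with the norm `max ‖f‖₂ (sup |psum n f|)`, realised as a graph inside
`ℓ² × ℓ^∞` (the product carries the max norm). -/
def Yn (n : ℕ) : Submodule ℝ (L2 × Linf) where
  carrier := {p | ∀ l, p.2 l = psum n (fun m => p.1 m) l}
  add_mem' := by
    intro p q hp hq l
    simp only [Set.mem_ofPred_eq] at hp hq
    simp only [Prod.snd_add, Prod.fst_add, lp.coeFn_add, Pi.add_apply]
    rw [psum_add, hp, hq]
  zero_mem' := by
    intro l
    simp [psum_zero]
  smul_mem' := by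
    intro c p hp l
    simp only [Set.mem_ofPred_eq] at hp
    simp only [Prod.smul_snd, Prod.smul_fst, lp.coeFn_smul, Pi.smul_apply, smul_eq_mul]
    rw [psum_smul, hp]

theorem abs_apply_le_norm (f : L2) (m : List ℕ) : |f m| ≤ ‖f‖ := by
  have := lp.norm_apply_le_norm (p := 2) (by norm_num) f m
  simpa using this

theorem memℓp_psum (n : ℕ) (f : L2) : Memℓp (psum n (fun m => f m)) ∞ := by
  apply memℓp_infty
  refine ⟨(n + 1 : ℕ) * ‖f‖, ?_⟩
  rintro _ ⟨l, rfl⟩
  simpa using abs_psum_le' n (fun m => f m) ‖f‖ (abs_apply_le_norm f) l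

/-- the bounded function `psum n f` as an element of `ℓ^∞`. -/
def psumInf (n : ℕ) (f : L2) : Linf := ⟨psum n (fun m => f m), memℓp_psum n f⟩

theorem psumInf_apply (n : ℕ) (f : L2) (l : List ℕ) : psumInf n f l = psum n (fun m => f m) l := rfl

/-- the element of `Yn n` with `ℓ²` part `f`. -/
def mk (n : ℕ) (f : L2) : Yn n := ⟨(f, psumInf n f), fun _ => rfl⟩

theorem mk_fst (n : ℕ) (f : L2) : (mk n f).1.1 = f := rfl
theorem mk_snd_apply (n : ℕ) (f : L2) (l : List ℕ) :
    (mk n f).1.2 l = psum n (fun m => f m) l := rfl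

theorem Yn_snd_apply {n : ℕ} (k : Yn n) (l : List ℕ) :
    k.1.2 l = psum n (fun m => k.1.1 m) l := k.2 l

theorem mk_fst_eq {n : ℕ} (k : Yn n) : mk n k.1.1 = k := by
  apply Subtype.ext
  apply Prod.ext
  · rfl
  · apply lp.ext
    funext l
    rw [Yn_snd_apply k l]
    rfl

theorem norm_Yn {n : ℕ} (k : Yn n) : ‖k‖ = max ‖k.1.1‖ ‖k.1.2‖ := rfl

theorem norm_psumInf_le (n : ℕ) (f : L2) : ‖psumInf n f‖ ≤ (n + 1 : ℕ) * ‖f‖ := by
  apply lp.norm_le_of_forall_le (by positivity)
  intro l
  rw [psumInf_apply]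
  simpa using abs_psum_le' n (fun m => f m) ‖f‖ (abs_apply_le_norm f) l

theorem norm_mk_le (n : ℕ) (f : L2) : ‖mk n f‖ ≤ (n + 1 : ℕ) * ‖f‖ := by
  rw [norm_Yn]
  apply max_le
  · have : (1 : ℝ) ≤ (n + 1 : ℕ) := by exact_mod_cast Nat.le_add_left 1 n
    calc ‖f‖ = 1 * ‖f‖ := (one_mul _).symm
      _ ≤ _ := by gcongr
  · exact norm_psumInf_le n f

/-- A criterion to bound the norm of `mk n f`. -/
theorem norm_mk_le_of {n : ℕ} {f : L2} {C : ℝ} (h2 : ‖f‖ ≤ C)
    (hs : ∀ l, |psum n (fun m => f m) l| ≤ C) : ‖mk n f‖ ≤ C := by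
  rw [norm_Yn]
  apply max_le h2
  apply lp.norm_le_of_forall_le (le_trans (norm_nonneg _) h2)
  intro l
  rw [mk_snd_apply]
  simpa using hs l

theorem norm_fst_le {n : ℕ} (k : Yn n) : ‖k.1.1‖ ≤ ‖k‖ := le_max_left _ _

theorem abs_psum_le_norm {n : ℕ} (k : Yn n) (l : List ℕ) :
    |psum n (fun m => k.1.1 m) l| ≤ ‖k‖ := by
  rw [← Yn_snd_apply]
  have := lp.norm_apply_le_norm (p := ∞) (by simp) k.1.2 l
  exact (by simpa using this : |k.1.2 l| ≤ ‖k.1.2‖).trans (le_max_right _ _)

/-- `mk n` as a linear map. -/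
def mkLin (n : ℕ) : L2 →ₗ[ℝ] Yn n where
  toFun := mk n
  map_add' f g := by
    apply Subtype.ext
    apply Prod.ext
    · rfl
    · apply lp.ext
      funext l
      change psum n (fun m => (f + g) m) l = psum n (fun m => f m) l + psum n (fun m => g m) l
      rw [← psum_add]
      rfl
  map_smul' c f := by
    apply Subtype.ext
    apply Prod.ext
    · rfl
    · apply lp.ext
      funext l
      change psum n (fun m => (c • f) m) l = c * psum n (fun m => f m) l
      rw [← psum_smul]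
      rfl

/-- `ℓ²` is linearly homeomorphic to `Yn n`. -/
def mkL (n : ℕ) : L2 ≃L[ℝ] Yn n :=
  ContinuousLinearEquiv.equivOfInverse
    ((mkLin n).mkContinuous (n + 1 : ℕ) (norm_mk_le n))
    ((ContinuousLinearMap.fst ℝ L2 Linf).comp (Yn n).subtypeL)
    (fun _ => rfl) (fun k => mk_fst_eq k)

theorem mkL_apply (n : ℕ) (f : L2) : mkL n f = mk n f := rfl

/-- the `ℓ²`-sum of the spaces `Yn n` -/
abbrev Y : Type := lp (fun n : ℕ => Yn n) 2

/-- the counterexample space: the dual of `Y` -/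
abbrev X : Type := StrongDual ℝ Y

/-- coordinate functional: value at node `l` of the `ℓ²` part of the `n`-th component -/
def eX (n : ℕ) (l : List ℕ) : X :=
  (lp.evalCLM ℝ (fun _ : List ℕ => ℝ) 2 l).comp
    ((ContinuousLinearMap.fst ℝ L2 Linf).comp
      ((Yn n).subtypeL.comp (lp.evalCLM ℝ (fun n : ℕ => Yn n) 2 n)))

/-- branch functional: branch sum at node `l` of the `n`-th component -/
def bX (n : ℕ) (l : List ℕ) : X :=
  (lp.evalCLM ℝ (fun _ : List ℕ => ℝ) ∞ l).comp
    ((ContinuousLinearMap.snd ℝ L2 Linf).comp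
      ((Yn n).subtypeL.comp (lp.evalCLM ℝ (fun n : ℕ => Yn n) 2 n)))

theorem eX_apply (n : ℕ) (l : List ℕ) (k : Y) : eX n l k = (k n).1.1 l := rfl
theorem bX_apply (n : ℕ) (l : List ℕ) (k : Y) : bX n l k = (k n).1.2 l := rfl

/-- unit vectors of `Y` -/
def dY (n : ℕ) (l : List ℕ) : Y := lp.single 2 n (mk n (lp.single 2 l (1 : ℝ)))

end

end Vale.Agent.P069L
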