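import Mathlib
import Vale.Agent.P069L.Reflexive

namespace Vale.Agent.P069L

open scoped ENNReal lp

/-- PACKAGE R3. The `ℓ²`-sum of reflexive spaces is reflexive. -/
theorem IsReflexiveSpace.lp_two {ι : Type*} {E : ι → Type*} [∀ i, NormedAddCommGroup (E i)]
    [∀ i, NormedSpace ℝ (E i)] (h : ∀ i, IsReflexiveSpace (E i)) :
    IsReflexiveSpace (lp E 2) := by
  sorry

end Vale.Agent.P069L
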