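import Mathlib
import Vale.Agent.P069L.Space
import Vale.Agent.P069L.ReflexiveLp

namespace Vale.Agent.P069L

open scoped ENNReal lp

theorem L2_reflexive : IsReflexiveSpace L2 :=
  IsReflexiveSpace.lp_two (fun _ => isReflexiveSpace_real)

theorem Yn_reflexive (n : ℕ) : IsReflexiveSpace (Yn n) :=
  L2_reflexive.of_equiv (mkL n)

theorem Y_reflexive : IsReflexiveSpace Y :=
  IsReflexiveSpace.lp_two Yn_reflexive

theorem X_reflexive : IsReflexiveSpace X :=
  Y_reflexive.dual

end Vale.Agent.P069L
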