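import Mathlib
import Vale.Agent.P069L.Space
import Vale.Agent.P069L.SpaceRefl

namespace Vale.Agent.P069L

open scoped ENNReal lp

/-! PACKAGE A2: finitely supported approximation in `Y` and `X`, the finite-codimensional
subspaces `FS S`. -/

theorem eX_dY (n : ℕ) (l : List ℕ) (n' : ℕ) (l' : List ℕ) :
    eX n l (dY n' l') = if n = n' ∧ l = l' then 1 else 0 := by
  sorry

theorem norm_dY (n : ℕ) (l : List ℕ) : ‖dY n l‖ = 1 := by
  sorry

/-- an element of `Y` with finite support is the corresponding finite combination of the `dY`. -/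
theorem eq_sum_dY (k : Y) (S : Finset (ℕ × List ℕ))
    (h : ∀ n l, (n, l) ∉ S → (k n).1.1 l = 0) :
    k = ∑ p ∈ S, (k p.1).1.1 p.2 • dY p.1 p.2 := by
  sorry

theorem approx_Y (f : Y) {η : ℝ} (hη : 0 < η) :
    ∃ (S : Finset (ℕ × List ℕ)) (c : ℕ × List ℕ → ℝ), ‖f - ∑ p ∈ S, c p • dY p.1 p.2‖ ≤ η := by
  sorry

/-- uses reflexivity of `Y` and Hahn-Banach: the closed span of the `eX` is all of `X`. -/
theorem approx_X (x : X) {η : ℝ} (hη : 0 < η) :
    ∃ (S : Finset (ℕ × List ℕ)) (c : ℕ × List ℕ → ℝ), ‖x - ∑ p ∈ S, c p • eX p.1 p.2‖ ≤ η := by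
  sorry

theorem exists_tail_closed (S : Finset (ℕ × List ℕ)) :
    ∃ S' : Finset (ℕ × List ℕ), S ⊆ S' ∧ ∀ n a l, (n, a :: l) ∈ S' → (n, l) ∈ S' := by
  sorry

/-- functionals on `Y` vanishing at the unit vectors indexed by `S`. -/
def FS (S : Finset (ℕ × List ℕ)) : Submodule ℝ X where
  carrier := {y | ∀ p ∈ S, y (dY p.1 p.2) = 0}
  add_mem' := by
    intro a b ha hb p hp
    simp [ha p hp, hb p hp]
  zero_mem' := by
    intro p _
    simp
  smul_mem' := by
    intro c a ha p hp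
    simp [ha p hp]

theorem FS_isClosed (S : Finset (ℕ × List ℕ)) : IsClosed (FS S : Set X) := by
  sorry

theorem FS_finiteDimensional (S : Finset (ℕ × List ℕ)) : FiniteDimensional ℝ (X ⧸ FS S) := by
  sorry

end Vale.Agent.P069L
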