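import Mathlib
import Vale.Agent.P069L.Space

namespace Vale.Agent.P069L

open scoped ENNReal lp

/-- squares of the coordinates of an `ℓ²` element sum to the square of the norm. -/
theorem hasSum_sq_L2 (u : L2) : HasSum (fun i => (u i) ^ 2) (‖u‖ ^ 2) := by
  have h := lp.hasSum_norm (p := 2) (by norm_num) u
  simpa [Real.norm_eq_abs, sq_abs] using h

theorem l2_sq_le (u v w : L2) (A B : ℝ)
    (h : ∀ l, (u l) ^ 2 ≤ A * (v l) ^ 2 + B * (w l) ^ 2) :
    ‖u‖ ^ 2 ≤ A * ‖v‖ ^ 2 + B * ‖w‖ ^ 2 :=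
  hasSum_le h (hasSum_sq_L2 u)
    (((hasSum_sq_L2 v).mul_left A).add ((hasSum_sq_L2 w).mul_left B))

/-- increments of a function on the tree. -/
def inc (P : List ℕ → ℝ) : List ℕ → ℝ
  | [] => P []
  | (a :: l) => P (a :: l) - P l

theorem psum_inc (n : ℕ) (P r : List ℕ → ℝ)
    (hP : ∀ a l, n < (a :: l).length → P (a :: l) = P l) (l : List ℕ) :
    psum n (fun l => if l.length ≤ n then inc P l else r l) l = P l := by
  induction l with
  | nil => simp [psum_nil, inc]
  | cons a l ih =>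
    rw [psum_cons, ih]
    by_cases h : (a :: l).length ≤ n
    · rw [if_pos h, if_pos h]
      simp [inc]
    · rw [if_neg h, zero_add]
      exact (hP a l (not_le.mp h)).symm

/-- `g` cut off on `S`. -/
noncomputable def gOff (S : Finset (List ℕ)) (g : List ℕ → ℝ) : List ℕ → ℝ :=
  fun l => if l ∈ S then 0 else g l

/-- `g` restricted to `S`. -/
noncomputable def gOn (S : Finset (List ℕ)) (g : List ℕ → ℝ) : List ℕ → ℝ :=
  fun l => if l ∈ S then g l else 0

theorem psum_gOff_eq_zero (n : ℕ) (S : Finset (List ℕ)) (hS : ∀ a l, (a :: l) ∈ S → l ∈ S)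
    (g : List ℕ → ℝ) (l : List ℕ) (hl : l ∈ S) : psum n (gOff S g) l = 0 := by
  induction l with
  | nil => simp [psum_nil, gOff, hl]
  | cons a l ih =>
    rw [psum_cons, ih (hS a l hl)]
    simp [gOff, hl]

theorem psum_gOn_eq (n : ℕ) (S : Finset (List ℕ)) (hS : ∀ a l, (a :: l) ∈ S → l ∈ S)
    (g : List ℕ → ℝ) (l : List ℕ) (hl : l ∈ S) : psum n (gOn S g) l = psum n g l := by
  induction l with
  | nil => simp [psum_nil, gOn, hl]
  | cons a l ih =>
    rw [psum_cons, psum_cons, ih (hS a l hl)]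
    simp [gOn, hl]

theorem abs_psum_gOn_le (n : ℕ) (S : Finset (List ℕ)) (hS : ∀ a l, (a :: l) ∈ S → l ∈ S)
    (g : List ℕ → ℝ) (c : ℝ) (hc : 0 ≤ c) (hg : ∀ l, |psum n g l| ≤ c) (l : List ℕ) :
    |psum n (gOn S g) l| ≤ c := by
  induction l with
  | nil =>
    by_cases h : ([] : List ℕ) ∈ S
    · rw [psum_gOn_eq n S hS g _ h]; exact hg _
    · simpa [psum_nil, gOn, h] using hc
  | cons a l ih =>
    by_cases h : (a :: l) ∈ S
    · rw [psum_gOn_eq n S hS g _ h]; exact hg _
    · rw [psum_cons]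
      simpa [gOn, h] using ih

theorem abs_psum_gOff_le (n : ℕ) (S : Finset (List ℕ)) (hS : ∀ a l, (a :: l) ∈ S → l ∈ S)
    (g : List ℕ → ℝ) (c : ℝ) (hc : 0 ≤ c) (hg : ∀ l, |psum n g l| ≤ c) (l : List ℕ) :
    |psum n (gOff S g) l| ≤ 2 * c := by
  have h1 : psum n g l = psum n (gOff S g) l + psum n (gOn S g) l := by
    rw [← psum_add]
    congr 1
    funext m
    by_cases h : m ∈ S <;> simp [gOff, gOn, h]
  have h2 := abs_psum_gOn_le n S hS g c hc hg l
  have h3 := hg l
  have h4 : psum n (gOff S g) l = psum n g l - psum n (gOn S g) l := by linarith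
  rw [h4]
  calc |psum n g l - psum n (gOn S g) l| ≤ |psum n g l| + |psum n (gOn S g) l| := abs_sub _ _
    _ ≤ 2 * c := by linarith

/-- The generic estimate: a potential `P` of sign opposite to the branch sums of `f`. -/
theorem local_key (n : ℕ) (S : Finset (List ℕ))
    (f g : L2) (hf : ∀ l, l ∉ S → f l = 0) (P r : List ℕ → ℝ)
    (hP2 : ∀ l, |inc P l| ≤ |gOff S (fun m => g m) l|)
    (hP3 : ∀ a l, n < (a :: l).length → P (a :: l) = P l)
    (hP4 : ∀ l, psum n (fun m => f m) l * P l ≤ 0)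
    (hP5 : ∀ l, |P l| ≤ 2 * ‖mk n g‖)
    (hr : ∀ l, |r l| ≤ |gOff S (fun m => g m) l|) :
    ∃ h : L2, (∀ l, h l = if l.length ≤ n then inc P l else r l) ∧ (∀ l ∈ S, h l = 0) ∧
      (∀ α β : ℝ, 0 ≤ α → 0 ≤ β →
        ‖mk n (α • f + β • h)‖ ^ 2 ≤ α ^ 2 * ‖mk n f‖ ^ 2 + 4 * β ^ 2 * ‖mk n g‖ ^ 2) := by
  have hbound : ∀ l, |(if l.length ≤ n then inc P l else r l)| ≤ |gOff S (fun m => g m) l| := by
    intro l
    split_ifs
    · exact hP2 l
    · exact hr l
  have hoff : ∀ l, |gOff S (fun m => g m) l| ≤ |g l| := by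
    intro l
    by_cases h : l ∈ S <;> simp [gOff, h]
  have hmem : Memℓp (fun l => if l.length ≤ n then inc P l else r l) 2 := by
    refine Memℓp.mono' (lp.memℓp g) ?_
    intro l
    simpa [Real.norm_eq_abs] using (hbound l).trans (hoff l)
  refine ⟨⟨_, hmem⟩, fun l => rfl, ?_, ?_⟩
  · intro l hl
    have h1 := hbound l
    have h2 : gOff S (fun m => g m) l = 0 := by simp [gOff, hl]
    rw [h2, abs_zero] at h1
    exact abs_nonpos_iff.mp h1
  · intro α β hα hβ
    set h : L2 := ⟨_, hmem⟩ with hh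
    have hval : ∀ l, h l = if l.length ≤ n then inc P l else r l := fun l => rfl
    have hS0 : ∀ l ∈ S, h l = 0 := by
      intro l hl
      have h1 := hbound l
      have h2 : gOff S (fun m => g m) l = 0 := by simp [gOff, hl]
      rw [h2, abs_zero] at h1
      rw [hval]
      exact abs_nonpos_iff.mp h1
    have hle : ∀ l, |h l| ≤ |g l| := fun l => by
      rw [hval]; exact (hbound l).trans (hoff l)
    set a := ‖mk n f‖ with ha
    set c := ‖mk n g‖ with hc
    have ha0 : 0 ≤ a := norm_nonneg _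
    have hc0 : 0 ≤ c := norm_nonneg _
    have hfa : ‖f‖ ≤ a := norm_fst_le (mk n f)
    have hgc : ‖g‖ ≤ c := norm_fst_le (mk n g)
    have hcoe : ∀ m, (α • f + β • h) m = α * f m + β * h m := by
      intro m
      rfl
    have hD0 : 0 ≤ α ^ 2 * a ^ 2 + 4 * β ^ 2 * c ^ 2 := by positivity
    have hmain : ‖mk n (α • f + β • h)‖ ≤ Real.sqrt (α ^ 2 * a ^ 2 + 4 * β ^ 2 * c ^ 2) := by
      apply norm_mk_le_of
      · apply Real.le_sqrt_of_sq_le
        have h1 : ‖α • f + β • h‖ ^ 2 ≤ α ^ 2 * ‖f‖ ^ 2 + β ^ 2 * ‖g‖ ^ 2 := by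
          apply l2_sq_le
          intro l
          rw [hcoe]
          by_cases hl : l ∈ S
          · rw [hS0 l hl]
            have : 0 ≤ β ^ 2 * (g l) ^ 2 := by positivity
            nlinarith
          · rw [hf l hl]
            have h3 : (h l) ^ 2 ≤ (g l) ^ 2 := sq_le_sq.mpr (hle l)
            have h4 : β ^ 2 * (h l) ^ 2 ≤ β ^ 2 * (g l) ^ 2 :=
              mul_le_mul_of_nonneg_left h3 (by positivity)
            nlinarith
        have h2 : ‖f‖ ^ 2 ≤ a ^ 2 := by gcongr
        have h3 : ‖g‖ ^ 2 ≤ c ^ 2 := by gcongr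
        have h4 : α ^ 2 * ‖f‖ ^ 2 ≤ α ^ 2 * a ^ 2 := mul_le_mul_of_nonneg_left h2 (by positivity)
        have h5 : β ^ 2 * ‖g‖ ^ 2 ≤ β ^ 2 * c ^ 2 := mul_le_mul_of_nonneg_left h3 (by positivity)
        have h6 : 0 ≤ β ^ 2 * c ^ 2 := by positivity
        linarith
      · intro l
        apply Real.abs_le_sqrt
        have e1 : (fun m => (α • f + β • h) m) = fun m => α * f m + β * h m := funext hcoe
        have e2 : psum n (fun m => h m) l = P l := by
          have : (fun m => h m) = fun l => if l.length ≤ n then inc P l else r l := funext hval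
          rw [this]
          exact psum_inc n P r hP3 l
        rw [e1, psum_add n (fun m => α * f m) (fun m => β * h m), psum_smul, psum_smul, e2]
        set F := psum n (fun m => f m) l with hF
        have hFa : |F| ≤ a := abs_psum_le_norm (mk n f) l
        have hPc : |P l| ≤ 2 * c := hP5 l
        have hFP : F * P l ≤ 0 := hP4 l
        have h1 : F ^ 2 ≤ a ^ 2 := by
          rw [← sq_abs F]; gcongr
        have h2 : (P l) ^ 2 ≤ (2 * c) ^ 2 := by
          rw [← sq_abs (P l)]; gcongr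
        have h3 : α ^ 2 * F ^ 2 ≤ α ^ 2 * a ^ 2 := mul_le_mul_of_nonneg_left h1 (by positivity)
        have h4 : β ^ 2 * (P l) ^ 2 ≤ β ^ 2 * (2 * c) ^ 2 :=
          mul_le_mul_of_nonneg_left h2 (by positivity)
        have h5 : (α * β) * (F * P l) ≤ 0 :=
          mul_nonpos_of_nonneg_of_nonpos (mul_nonneg hα hβ) hFP
        nlinarith
    calc ‖mk n (α • f + β • h)‖ ^ 2
        ≤ (Real.sqrt (α ^ 2 * a ^ 2 + 4 * β ^ 2 * c ^ 2)) ^ 2 := by gcongr
      _ = α ^ 2 * a ^ 2 + 4 * β ^ 2 * c ^ 2 := Real.sq_sqrt hD0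

/-- the potential built from two truncations `σ₁` (used where the branch sum of `f` is `≥ 0`)
and `σ₂` (used where it is `< 0`). -/
noncomputable def pot (σ₁ σ₂ : ℝ → ℝ) (F G : List ℕ → ℝ) : List ℕ → ℝ :=
  fun l => if 0 ≤ F l then σ₁ (G l) else σ₂ (G l)

theorem pot_props (n : ℕ) (S : Finset (List ℕ)) (hS : ∀ a l, (a :: l) ∈ S → l ∈ S)
    (f g : L2) (hf : ∀ l, l ∉ S → f l = 0) (σ₁ σ₂ : ℝ → ℝ)
    (h10 : σ₁ 0 = 0) (h20 : σ₂ 0 = 0)
    (h1L : ∀ x y, |σ₁ x - σ₁ y| ≤ |x - y|) (h2L : ∀ x y, |σ₂ x - σ₂ y| ≤ |x - y|)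
    (h1s : ∀ x, σ₁ x ≤ 0) (h2s : ∀ x, 0 ≤ σ₂ x) :
    (∀ l, |inc (pot σ₁ σ₂ (psum n (fun m => f m)) (psum n (gOff S (fun m => g m)))) l|
        ≤ |gOff S (fun m => g m) l|) ∧
    (∀ a l, n < (a :: l).length →
      pot σ₁ σ₂ (psum n (fun m => f m)) (psum n (gOff S (fun m => g m))) (a :: l)
        = pot σ₁ σ₂ (psum n (fun m => f m)) (psum n (gOff S (fun m => g m))) l) ∧
    (∀ l, psum n (fun m => f m) l *
      pot σ₁ σ₂ (psum n (fun m => f m)) (psum n (gOff S (fun m => g m))) l ≤ 0) ∧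
    (∀ l, |pot σ₁ σ₂ (psum n (fun m => f m)) (psum n (gOff S (fun m => g m))) l|
        ≤ 2 * ‖mk n g‖) := by
  set F := psum n (fun m => f m) with hF
  set G := psum n (gOff S (fun m => g m)) with hG
  have h1a : ∀ x, |σ₁ x| ≤ |x| := fun x => by simpa [h10] using h1L x 0
  have h2a : ∀ x, |σ₂ x| ≤ |x| := fun x => by simpa [h20] using h2L x 0
  have hpa : ∀ l, |pot σ₁ σ₂ F G l| ≤ |G l| := by
    intro l
    unfold pot
    split_ifs
    · exact h1a _
    · exact h2a _
  refine ⟨?_, ?_, ?_, ?_⟩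
  · intro l
    cases l with
    | nil =>
      have : G [] = gOff S (fun m => g m) [] := by rw [hG, psum_nil]
      rw [← this]
      exact hpa []
    | cons a l =>
      by_cases h : (a :: l) ∈ S
      · have e1 : G (a :: l) = 0 := psum_gOff_eq_zero n S hS _ _ h
        have e2 : G l = 0 := psum_gOff_eq_zero n S hS _ _ (hS a l h)
        have e3 : pot σ₁ σ₂ F G (a :: l) = 0 := by
          have := hpa (a :: l)
          rw [e1, abs_zero] at this
          exact abs_nonpos_iff.mp this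
        have e4 : pot σ₁ σ₂ F G l = 0 := by
          have := hpa l
          rw [e2, abs_zero] at this
          exact abs_nonpos_iff.mp this
        simp [inc, e3, e4]
      · have e1 : F (a :: l) = F l := by
          rw [hF, psum_cons, hf _ h]
          simp
        have e2 : |G (a :: l) - G l| ≤ |gOff S (fun m => g m) (a :: l)| := by
          rw [hG, psum_cons]
          split_ifs <;> simp
        refine le_trans ?_ e2
        simp only [inc, pot, e1]
        split_ifs
        · exact h1L _ _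
        · exact h2L _ _
  · intro a l hl
    have hl' : ¬ (a :: l).length ≤ n := not_le.mpr hl
    have e1 : F (a :: l) = F l := by
      rw [hF, psum_cons, if_neg hl', zero_add]
    have e2 : G (a :: l) = G l := by
      rw [hG, psum_cons, if_neg hl', zero_add]
    simp only [pot, e1, e2]
  · intro l
    unfold pot
    split_ifs with h
    · exact mul_nonpos_of_nonneg_of_nonpos h (h1s _)
    · exact mul_nonpos_of_nonpos_of_nonneg (le_of_lt (not_le.mp h)) (h2s _)
  · intro l
    refine (hpa l).trans ?_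
    exact abs_psum_gOff_le n S hS _ _ (norm_nonneg _) (fun l => abs_psum_le_norm (mk n g) l) l

/-- PACKAGE A1 (local splitting lemma on one tree). -/
theorem local_split (n : ℕ) (S : Finset (List ℕ)) (hS : ∀ a l, (a :: l) ∈ S → l ∈ S)
    (f g : L2) (hf : ∀ l, l ∉ S → f l = 0) :
    ∃ hp hm : L2, (∀ l ∈ S, hp l = 0) ∧ (∀ l ∈ S, hm l = 0) ∧
      (∀ l, l ∉ S → hp l - hm l = g l) ∧
      (∀ α β : ℝ, 0 ≤ α → 0 ≤ β →
        ‖mk n (α • f + β • hp)‖ ^ 2 ≤ α ^ 2 * ‖mk n f‖ ^ 2 + 4 * β ^ 2 * ‖mk n g‖ ^ 2) ∧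
      (∀ α β : ℝ, 0 ≤ α → 0 ≤ β →
        ‖mk n (α • f + β • hm)‖ ^ 2 ≤ α ^ 2 * ‖mk n f‖ ^ 2 + 4 * β ^ 2 * ‖mk n g‖ ^ 2) := by
  have Lmin : ∀ x y : ℝ, |min x 0 - min y 0| ≤ |x - y| := by
    intro x y
    have := abs_min_sub_min_le_max x 0 y 0
    simpa using this
  have Lmax : ∀ x y : ℝ, |max x 0 - max y 0| ≤ |x - y| := by
    intro x y
    have := abs_max_sub_max_le_max x 0 y 0
    simpa using this
  obtain ⟨p2, p3, p4, p5⟩ := pot_props n S hS f g hf (fun x => min x 0) (fun x => max x 0)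
    (by simp) (by simp) Lmin Lmax (fun x => min_le_right _ _) (fun x => le_max_right _ _)
  obtain ⟨m2, m3, m4, m5⟩ := pot_props n S hS f g hf (fun x => -max x 0) (fun x => -min x 0)
    (by simp) (by simp)
    (fun x y => by
      have := Lmax x y
      rw [abs_sub_comm] at this
      have e : -max x 0 - -max y 0 = max y 0 - max x 0 := by ring
      rw [e]; rw [abs_sub_comm x y]; exact Lmax y x)
    (fun x y => by
      have e : -min x 0 - -min y 0 = min y 0 - min x 0 := by ring
      rw [e]; rw [abs_sub_comm x y]; exact Lmin y x)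
    (fun x => by simp) (fun x => by simp)
  obtain ⟨hp, hpv, hpS, hpE⟩ := local_key n S f g hf _ (gOff S (fun m => g m)) p2 p3 p4 p5
    (fun l => le_refl _)
  obtain ⟨hm, hmv, hmS, hmE⟩ := local_key n S f g hf _ (fun _ => 0) m2 m3 m4 m5
    (fun l => by simp)
  refine ⟨hp, hm, hpS, hmS, ?_, hpE, hmE⟩
  intro l hl
  rw [hpv, hmv]
  have hgl : gOff S (fun m => g m) l = g l := by simp [gOff, hl]
  have hdiff : ∀ l, pot (fun x => min x 0) (fun x => max x 0) (psum n (fun m => f m))
        (psum n (gOff S (fun m => g m))) l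
      - pot (fun x => -max x 0) (fun x => -min x 0) (psum n (fun m => f m))
        (psum n (gOff S (fun m => g m))) l = psum n (gOff S (fun m => g m)) l := by
    intro l
    unfold pot
    split_ifs
    · have := min_add_max (psum n (gOff S (fun m => g m)) l) 0
      linarith
    · have := min_add_max (psum n (gOff S (fun m => g m)) l) 0
      linarith
  by_cases hn : l.length ≤ n
  · rw [if_pos hn, if_pos hn, ← hgl]
    cases l with
    | nil =>
      simp only [inc]
      rw [hdiff, psum_nil]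
    | cons a l =>
      simp only [inc]
      have h1 := hdiff (a :: l)
      have h2 := hdiff l
      have h3 : psum n (gOff S (fun m => g m)) (a :: l)
          = gOff S (fun m => g m) (a :: l) + psum n (gOff S (fun m => g m)) l := by
        rw [psum_cons, if_pos hn]
      linarith
  · rw [if_neg hn, if_neg hn, hgl, sub_zero]

end Vale.Agent.P069L
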