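import Mathlib
import Vale.Agent.P069L.Space
import Vale.Agent.P069L.Local
import Vale.Agent.P069L.Approx

namespace Vale.Agent.P069L

open scoped ENNReal lp

/-- squares of the component norms sum to the square of the norm in `Y`. -/
theorem hasSum_norm_sq_Y (k : Y) : HasSum (fun n => ‖k n‖ ^ 2) (‖k‖ ^ 2) := by
  have h := lp.hasSum_norm (p := 2) (by norm_num) k
  simpa using h

/-- build an element of `Y` from components with summable squares. -/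
theorem memℓp_of_summable_sq (F : ∀ n : ℕ, Yn n) (h : Summable fun n => ‖F n‖ ^ 2) :
    Memℓp F 2 := by
  apply memℓp_gen
  simpa using h

/-- the slice of a finite set of nodes. -/
noncomputable def slice (S : Finset (ℕ × List ℕ)) (n : ℕ) : Finset (List ℕ) :=
  (S.filter fun p => p.1 = n).image Prod.snd

theorem mem_slice {S : Finset (ℕ × List ℕ)} {n : ℕ} {l : List ℕ} :
    l ∈ slice S n ↔ (n, l) ∈ S := by
  unfold slice
  simp only [Finset.mem_image, Finset.mem_filter]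
  constructor
  · rintro ⟨⟨a, b⟩, ⟨h1, h2⟩, h3⟩
    simp only at h2 h3
    subst h2 h3
    exact h1
  · intro h
    exact ⟨(n, l), ⟨h, rfl⟩, rfl⟩

theorem mk_add_smul (n : ℕ) (a b : L2) (β : ℝ) : mk n (a + β • b) = mk n a + β • mk n b := by
  have := (mkLin n).map_add a (β • b)
  rw [(mkLin n).map_smul] at this
  exact this

/-- global splitting lemma on `Y`. -/
theorem global_split (S : Finset (ℕ × List ℕ)) (hS : ∀ n a l, (n, a :: l) ∈ S → (n, l) ∈ S)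
    (f g : Y) (hf : ∀ n l, (n, l) ∉ S → (f n).1.1 l = 0) :
    ∃ Hp Hm : Y, (∀ n l, (n, l) ∈ S → (Hp n).1.1 l = 0) ∧ (∀ n l, (n, l) ∈ S → (Hm n).1.1 l = 0) ∧
      (∀ n l, (n, l) ∉ S → (Hp n).1.1 l - (Hm n).1.1 l = (g n).1.1 l) ∧
      (∀ β : ℝ, 0 ≤ β → ‖f + β • Hp‖ ^ 2 ≤ ‖f‖ ^ 2 + 4 * β ^ 2 * ‖g‖ ^ 2) ∧
      (∀ β : ℝ, 0 ≤ β → ‖f + β • Hm‖ ^ 2 ≤ ‖f‖ ^ 2 + 4 * β ^ 2 * ‖g‖ ^ 2) ∧
      ‖Hp‖ ^ 2 ≤ 4 * ‖g‖ ^ 2 ∧ ‖Hm‖ ^ 2 ≤ 4 * ‖g‖ ^ 2 := by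
  have hloc : ∀ n, ∃ hp hm : L2, (∀ l ∈ slice S n, hp l = 0) ∧ (∀ l ∈ slice S n, hm l = 0) ∧
      (∀ l, l ∉ slice S n → hp l - hm l = (g n).1.1 l) ∧
      (∀ α β : ℝ, 0 ≤ α → 0 ≤ β →
        ‖mk n (α • (f n).1.1 + β • hp)‖ ^ 2 ≤
          α ^ 2 * ‖mk n (f n).1.1‖ ^ 2 + 4 * β ^ 2 * ‖mk n (g n).1.1‖ ^ 2) ∧
      (∀ α β : ℝ, 0 ≤ α → 0 ≤ β →
        ‖mk n (α • (f n).1.1 + β • hm)‖ ^ 2 ≤
          α ^ 2 * ‖mk n (f n).1.1‖ ^ 2 + 4 * β ^ 2 * ‖mk n (g n).1.1‖ ^ 2) := by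
    intro n
    apply local_split n (slice S n)
    · intro a l h
      rw [mem_slice] at h ⊢
      exact hS n a l h
    · intro l hl
      rw [mem_slice] at hl
      exact hf n l hl
  choose hp hm h1 h2 h3 h4 h5 using hloc
  have hg := hasSum_norm_sq_Y g
  have hfs := hasSum_norm_sq_Y f
  have bp : ∀ n, ‖mk n (hp n)‖ ^ 2 ≤ 4 * ‖g n‖ ^ 2 := by
    intro n
    have := h4 n 0 1 le_rfl zero_le_one
    simpa [mk_fst_eq] using this
  have bm : ∀ n, ‖mk n (hm n)‖ ^ 2 ≤ 4 * ‖g n‖ ^ 2 := by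
    intro n
    have := h5 n 0 1 le_rfl zero_le_one
    simpa [mk_fst_eq] using this
  have sp : Summable fun n => ‖mk n (hp n)‖ ^ 2 :=
    Summable.of_nonneg_of_le (fun n => by positivity) bp (hg.summable.mul_left 4)
  have sm : Summable fun n => ‖mk n (hm n)‖ ^ 2 :=
    Summable.of_nonneg_of_le (fun n => by positivity) bm (hg.summable.mul_left 4)
  let Hp : Y := ⟨fun n => mk n (hp n), memℓp_of_summable_sq _ sp⟩
  let Hm : Y := ⟨fun n => mk n (hm n), memℓp_of_summable_sq _ sm⟩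
  have Hp_apply : ∀ n, Hp n = mk n (hp n) := fun n => rfl
  have Hm_apply : ∀ n, Hm n = mk n (hm n) := fun n => rfl
  refine ⟨Hp, Hm, ?_, ?_, ?_, ?_, ?_, ?_, ?_⟩
  · intro n l h
    rw [Hp_apply, mk_fst]
    exact h1 n l (mem_slice.2 h)
  · intro n l h
    rw [Hm_apply, mk_fst]
    exact h2 n l (mem_slice.2 h)
  · intro n l h
    rw [Hp_apply, Hm_apply, mk_fst, mk_fst]
    exact h3 n l (fun h' => h (mem_slice.1 h'))
  · intro β hβ
    have hK := hasSum_norm_sq_Y (f + β • Hp)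
    have hsum : HasSum (fun n => ‖f n‖ ^ 2 + 4 * β ^ 2 * ‖g n‖ ^ 2)
        (‖f‖ ^ 2 + 4 * β ^ 2 * ‖g‖ ^ 2) := hfs.add (hg.mul_left _)
    refine hasSum_le (fun n => ?_) hK hsum
    have e : (f + β • Hp) n = mk n ((1 : ℝ) • (f n).1.1 + β • hp n) := by
      rw [one_smul, mk_add_smul, mk_fst_eq]
      rfl
    rw [e]
    have := h4 n 1 β zero_le_one hβ
    simpa [mk_fst_eq] using this
  · intro β hβ
    have hK := hasSum_norm_sq_Y (f + β • Hm)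
    have hsum : HasSum (fun n => ‖f n‖ ^ 2 + 4 * β ^ 2 * ‖g n‖ ^ 2)
        (‖f‖ ^ 2 + 4 * β ^ 2 * ‖g‖ ^ 2) := hfs.add (hg.mul_left _)
    refine hasSum_le (fun n => ?_) hK hsum
    have e : (f + β • Hm) n = mk n ((1 : ℝ) • (f n).1.1 + β • hm n) := by
      rw [one_smul, mk_add_smul, mk_fst_eq]
      rfl
    rw [e]
    have := h5 n 1 β zero_le_one hβ
    simpa [mk_fst_eq] using this
  · exact hasSum_le bp (hasSum_norm_sq_Y Hp) (hg.mul_left 4)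
  · exact hasSum_le bm (hasSum_norm_sq_Y Hm) (hg.mul_left 4)

theorem exists_params (t : ℝ) (ht : 0 < t) :
    ∃ η : ℝ, 0 < η ∧ η < 1 ∧
      Real.sqrt ((1 + η) ^ 2 + t ^ 2 / 16) < 1 + t ^ 2 / 16 - η * (2 + t / 4 + t ^ 2 / 16) := by
  set τ : ℝ := t ^ 2 / 16 with hτ
  have hτ0 : 0 < τ := by positivity
  have h0 : Real.sqrt ((1 + (0 : ℝ)) ^ 2 + τ) < 1 + τ - 0 * (2 + t / 4 + τ) := by
    rw [Real.sqrt_lt' (by linarith)]
    nlinarith
  have hcont : Continuous fun η : ℝ =>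
      (1 + τ - η * (2 + t / 4 + τ)) - Real.sqrt ((1 + η) ^ 2 + τ) := by fun_prop
  have hev : ∀ᶠ η in nhds (0 : ℝ),
      0 < (1 + τ - η * (2 + t / 4 + τ)) - Real.sqrt ((1 + η) ^ 2 + τ) :=
    hcont.continuousAt.eventually (lt_mem_nhds (by linarith))
  have hev2 : ∀ᶠ η in nhdsWithin (0 : ℝ) (Set.Ioi 0),
      0 < (1 + τ - η * (2 + t / 4 + τ)) - Real.sqrt ((1 + η) ^ 2 + τ) :=
    hev.filter_mono nhdsWithin_le_nhds
  have hev3 : ∀ᶠ η in nhdsWithin (0 : ℝ) (Set.Ioi 0), η ∈ Set.Ioo (0 : ℝ) 1 :=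
    Ioo_mem_nhdsGT one_pos
  obtain ⟨η, h1, h2⟩ := (hev2.and hev3).exists
  exact ⟨η, h2.1, h2.2, by linarith⟩

theorem exists_near_norming (y : X) (hy : ‖y‖ = 1) {η : ℝ} (hη : 0 < η) :
    ∃ g : Y, ‖g‖ < 1 ∧ 1 - η < y g := by
  obtain ⟨f, hf1, hf2⟩ := y.exists_lt_apply_of_lt_opNorm (r := 1 - η) (by rw [hy]; linarith)
  rw [Real.norm_eq_abs] at hf2
  rcases le_or_gt 0 (y f) with h | h
  · exact ⟨f, hf1, by rwa [abs_of_nonneg h] at hf2⟩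
  · exact ⟨-f, by rwa [norm_neg], by rw [map_neg]; rwa [abs_of_neg h] at hf2⟩

theorem apply_le_of_norm (z : X) (k : Y) {R : ℝ} (hk : ‖k‖ ≤ R) : z k ≤ ‖z‖ * R :=
  calc z k ≤ |z k| := le_abs_self _
    _ = ‖z k‖ := (Real.norm_eq_abs _).symm
    _ ≤ ‖z‖ * ‖k‖ := z.le_opNorm k
    _ ≤ ‖z‖ * R := by gcongr

/-- the final computation, with all the objects abstracted. -/
theorem core_estimate {t η : ℝ} (ht : 0 < t) (hη0 : 0 < η) (x y : X) (f' g Hp Hm : Y)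
    (nf' : ‖f'‖ ≤ 1 + η) (xf' : 1 - 2 * η ≤ x f') (hg1 : ‖g‖ < 1)
    (xHp : -(2 * η) ≤ x Hp) (xHm : -(2 * η) ≤ x Hm) (yf' : y f' = 0)
    (ygH : y g = y Hp - y Hm) (hyg : 1 - η < y g)
    (a4 : ‖f' + (t / 8) • Hp‖ ^ 2 ≤ ‖f'‖ ^ 2 + 4 * (t / 8) ^ 2 * ‖g‖ ^ 2)
    (a5 : ‖f' + (t / 8) • Hm‖ ^ 2 ≤ ‖f'‖ ^ 2 + 4 * (t / 8) ^ 2 * ‖g‖ ^ 2) :
    1 + t ^ 2 / 16 - η * (2 + t / 4 + t ^ 2 / 16) ≤
      max ‖x + t • y‖ ‖x - t • y‖ * Real.sqrt ((1 + η) ^ 2 + t ^ 2 / 16) := by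
  have hg0 : 0 ≤ ‖g‖ := norm_nonneg _
  have hgsq : ‖g‖ ^ 2 ≤ 1 := by nlinarith
  have hsq : ‖f'‖ ^ 2 + 4 * (t / 8) ^ 2 * ‖g‖ ^ 2 ≤ (1 + η) ^ 2 + t ^ 2 / 16 := by
    have e1 : ‖f'‖ ^ 2 ≤ (1 + η) ^ 2 := by
      have := norm_nonneg f'
      nlinarith
    have e2 : 4 * (t / 8) ^ 2 * ‖g‖ ^ 2 ≤ t ^ 2 / 16 := by
      have h : 4 * (t / 8) ^ 2 = t ^ 2 / 16 := by ring
      rw [h]
      have : 0 ≤ t ^ 2 / 16 := by positivity
      nlinarith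
    linarith
  have nKp : ‖f' + (t / 8) • Hp‖ ≤ Real.sqrt ((1 + η) ^ 2 + t ^ 2 / 16) :=
    Real.le_sqrt_of_sq_le (a4.trans hsq)
  have nKm : ‖f' + (t / 8) • Hm‖ ≤ Real.sqrt ((1 + η) ^ 2 + t ^ 2 / 16) :=
    Real.le_sqrt_of_sq_le (a5.trans hsq)
  have hR0 : 0 ≤ Real.sqrt ((1 + η) ^ 2 + t ^ 2 / 16) := Real.sqrt_nonneg _
  have ht8 : 0 ≤ t / 8 := by positivity
  have htt : 0 ≤ t * (t / 8) := by positivity
  rcases le_or_gt ((1 - η) / 2) (y Hp) with hp | hp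
  · have key : 1 + t ^ 2 / 16 - η * (2 + t / 4 + t ^ 2 / 16) ≤
        (x + t • y) (f' + (t / 8) • Hp) := by
      have e : (x + t • y) (f' + (t / 8) • Hp)
          = x f' + (t / 8) * x Hp + t * y f' + t * (t / 8) * y Hp := by
        simp only [add_apply, smul_apply, map_add, map_smul, smul_eq_mul]
        ring
      rw [e, yf']
      have b2 : (t / 8) * (-(2 * η)) ≤ (t / 8) * x Hp := mul_le_mul_of_nonneg_left xHp ht8
      have b3 : t * (t / 8) * ((1 - η) / 2) ≤ t * (t / 8) * y Hp :=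
        mul_le_mul_of_nonneg_left hp htt
      nlinarith
    have := apply_le_of_norm (x + t • y) _ nKp
    calc _ ≤ ‖x + t • y‖ * Real.sqrt ((1 + η) ^ 2 + t ^ 2 / 16) := key.trans this
      _ ≤ _ := mul_le_mul_of_nonneg_right (le_max_left _ _) hR0
  · have hq : (1 - η) / 2 ≤ -(y Hm) := by linarith
    have key : 1 + t ^ 2 / 16 - η * (2 + t / 4 + t ^ 2 / 16) ≤
        (x - t • y) (f' + (t / 8) • Hm) := by
      have e : (x - t • y) (f' + (t / 8) • Hm)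
          = x f' + (t / 8) * x Hm - t * y f' + t * (t / 8) * (-(y Hm)) := by
        simp only [sub_apply, smul_apply, map_add, map_smul, smul_eq_mul]
        ring
      rw [e, yf']
      have b2 : (t / 8) * (-(2 * η)) ≤ (t / 8) * x Hm := mul_le_mul_of_nonneg_left xHm ht8
      have b3 : t * (t / 8) * ((1 - η) / 2) ≤ t * (t / 8) * (-(y Hm)) :=
        mul_le_mul_of_nonneg_left hq htt
      nlinarith
    have := apply_le_of_norm (x - t • y) _ nKm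
    calc _ ≤ ‖x - t • y‖ * Real.sqrt ((1 + η) ^ 2 + t ^ 2 / 16) := key.trans this
      _ ≤ _ := mul_le_mul_of_nonneg_right (le_max_right _ _) hR0

/-- a finite combination of the `dY` vanishes off the index set. -/
theorem sum_dY_supp (S0 : Finset (ℕ × List ℕ)) (c0 : ℕ × List ℕ → ℝ) (n : ℕ) (l : List ℕ)
    (h : (n, l) ∉ S0) : ((∑ p ∈ S0, c0 p • dY p.1 p.2 : Y) n).1.1 l = 0 := by
  rw [← eX_apply]
  simp only [map_sum, map_smul, eX_dY, smul_eq_mul]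
  apply Finset.sum_eq_zero
  intro p hp
  rw [if_neg, mul_zero]
  rintro ⟨rfl, rfl⟩
  exact h hp

/-- a finite combination of the `eX` kills elements vanishing on the index set. -/
theorem sum_eX_apply_eq_zero (S1 : Finset (ℕ × List ℕ)) (c1 : ℕ × List ℕ → ℝ) (H : Y)
    (hH : ∀ p ∈ S1, (H p.1).1.1 p.2 = 0) : (∑ p ∈ S1, c1 p • eX p.1 p.2 : X) H = 0 := by
  simp only [sum_apply, smul_apply, eX_apply, smul_eq_mul]
  apply Finset.sum_eq_zero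
  intro p hp
  rw [hH p hp, mul_zero]

/-- members of `FS S` kill finite combinations of `dY` indexed in `S`. -/
theorem FS_apply_sum {S S0 : Finset (ℕ × List ℕ)} (hsub : S0 ⊆ S) {y : X} (hy : y ∈ FS S)
    (c0 : ℕ × List ℕ → ℝ) : y (∑ p ∈ S0, c0 p • dY p.1 p.2) = 0 := by
  simp only [map_sum, map_smul, smul_eq_mul]
  apply Finset.sum_eq_zero
  intro p hp
  rw [hy p (hsub hp), mul_zero]

/-- members of `FS S` kill elements supported in `S`. -/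
theorem FS_apply_of_supp {S : Finset (ℕ × List ℕ)} {y : X} (hy : y ∈ FS S) (k : Y)
    (hk : ∀ n l, (n, l) ∉ S → (k n).1.1 l = 0) : y k = 0 := by
  rw [eq_sum_dY k S hk]
  exact FS_apply_sum (Finset.Subset.refl S) hy _

theorem lower_of_close (x x' : X) {η : ℝ} (h1 : ‖x - x'‖ ≤ η) (H : Y) (hH : x' H = 0)
    (hn : ‖H‖ ≤ 2) : -(2 * η) ≤ x H := by
  have e : x H = -((x - x') (-H)) := by
    rw [map_neg, neg_neg, sub_apply, hH, sub_zero]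
  have b : (x - x') (-H) ≤ ‖x - x'‖ * 2 := apply_le_of_norm _ _ (by rwa [norm_neg])
  have : ‖x - x'‖ * 2 ≤ η * 2 := by gcongr
  rw [e]
  linarith

/-- PACKAGE A3: the dual norm of `X` is asymptotically midpoint uniformly convex. -/
theorem X_isAMUC : IsAMUC (fun x : X => ‖x‖) := by
  intro t ht
  obtain ⟨η, hη0, hη1, hlt⟩ := exists_params t ht
  have hR0 : 0 < Real.sqrt ((1 + η) ^ 2 + t ^ 2 / 16) := Real.sqrt_pos.2 (by positivity)
  refine ⟨(1 + t ^ 2 / 16 - η * (2 + t / 4 + t ^ 2 / 16)) /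
    Real.sqrt ((1 + η) ^ 2 + t ^ 2 / 16) - 1, by rw [sub_pos, one_lt_div hR0]; exact hlt, ?_⟩
  intro x hx
  change ‖x‖ = 1 at hx
  obtain ⟨f0, hf0, hxf0⟩ := exists_near_norming x hx hη0
  obtain ⟨S0, c0, h0⟩ := approx_Y f0 hη0
  obtain ⟨S1, c1, h1⟩ := approx_X x hη0
  obtain ⟨S, hSsub, hStail⟩ := exists_tail_closed (S0 ∪ S1)
  have hS0 : S0 ⊆ S := Finset.union_subset_left hSsub
  have hS1 : S1 ⊆ S := Finset.union_subset_right hSsub
  refine ⟨FS S, FS_isClosed S, FS_finiteDimensional S, ?_⟩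
  intro y hyF hy1
  change ‖y‖ = 1 at hy1
  obtain ⟨g, hg1, hyg⟩ := exists_near_norming y hy1 hη0
  generalize hf' : (∑ p ∈ S0, c0 p • dY p.1 p.2 : Y) = f' at h0
  generalize hx' : (∑ p ∈ S1, c1 p • eX p.1 p.2 : X) = x' at h1
  have hf'supp : ∀ n l, (n, l) ∉ S → (f' n).1.1 l = 0 := by
    intro n l h
    rw [← hf']
    exact sum_dY_supp S0 c0 n l (fun h' => h (hS0 h'))
  obtain ⟨Hp, Hm, a1, a2, a3, a4, a5, a6, a7⟩ := global_split S hStail f' g hf'supp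
  have nf' : ‖f'‖ ≤ 1 + η := by
    calc ‖f'‖ = ‖f0 - (f0 - f')‖ := by congr 1; abel
      _ ≤ ‖f0‖ + ‖f0 - f'‖ := norm_sub_le _ _
      _ ≤ 1 + η := by linarith
  have xf' : 1 - 2 * η ≤ x f' := by
    have e : x f' = x f0 - x (f0 - f') := by rw [map_sub]; ring
    have b : x (f0 - f') ≤ ‖x‖ * η := apply_le_of_norm x _ h0
    rw [hx] at b
    linarith
  have hg0 : 0 ≤ ‖g‖ := norm_nonneg _
  have hgsq : ‖g‖ ^ 2 ≤ 1 := by nlinarith
  have nHp : ‖Hp‖ ≤ 2 := by nlinarith [norm_nonneg Hp]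
  have nHm : ‖Hm‖ ≤ 2 := by nlinarith [norm_nonneg Hm]
  have x'Hp : x' Hp = 0 := by
    rw [← hx']
    exact sum_eX_apply_eq_zero S1 c1 Hp fun p hp => a1 p.1 p.2 (hS1 hp)
  have x'Hm : x' Hm = 0 := by
    rw [← hx']
    exact sum_eX_apply_eq_zero S1 c1 Hm fun p hp => a2 p.1 p.2 (hS1 hp)
  have yf' : y f' = 0 := by
    rw [← hf']
    exact FS_apply_sum hS0 hyF c0
  have ygH : y g = y Hp - y Hm := by
    have hk : ∀ n l, (n, l) ∉ S → ((g - (Hp - Hm)) n).1.1 l = 0 := by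
      intro n l h
      rw [← eX_apply, map_sub, map_sub, eX_apply, eX_apply, eX_apply, a3 n l h, sub_self]
    have := FS_apply_of_supp hyF _ hk
    rw [map_sub, map_sub] at this
    linarith
  have ht8 : 0 ≤ t / 8 := by positivity
  have main := core_estimate ht hη0 x y f' g Hp Hm nf' xf' hg1
    (lower_of_close x x' h1 Hp x'Hp nHp) (lower_of_close x x' h1 Hm x'Hm nHm) yf' ygH hyg
    (a4 _ ht8) (a5 _ ht8)
  change 1 + ((1 + t ^ 2 / 16 - η * (2 + t / 4 + t ^ 2 / 16)) /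
    Real.sqrt ((1 + η) ^ 2 + t ^ 2 / 16) - 1) ≤ max ‖x + t • y‖ ‖x - t • y‖
  rw [add_sub_cancel, div_le_iff₀ hR0]
  exact main

end Vale.Agent.P069L
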