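import Mathlib
import Vale.Agent.P069L.Defs

namespace Vale.Agent.P069L

/-- PACKAGE B. A space containing, for every `n`, a tree of height `n` (indexed by lists, parent of
`a :: l` is `l`) with nodes of norm at least one, weakly null children and branch sums of norm at
most one has no equivalent asymptotically uniformly convex norm. -/
theorem no_AUC_of_trees {X : Type*} [NormedAddCommGroup X] [NormedSpace ℝ X]
    (e b : ℕ → List ℕ → X)
    (he : ∀ n l, l.length ≤ n → 1 ≤ ‖e n l‖)
    (hw : ∀ n l, l.length < n → ∀ φ : StrongDual ℝ X,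
      Filter.Tendsto (fun j : ℕ => φ (e n (j :: l))) Filter.atTop (nhds 0))
    (hb0 : ∀ n, b n [] = e n [])
    (hb1 : ∀ n a l, (a :: l).length ≤ n → b n (a :: l) = e n (a :: l) + b n l)
    (hbn : ∀ n l, l.length ≤ n → ‖b n l‖ ≤ 1)
    (N : X → ℝ) (hN : IsEquivNorm N) : ¬ IsAUC N := by
  sorry

end Vale.Agent.P069L
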