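import Mathlib
import Vale.Agent.P069L.Space
import Vale.Agent.P069L.SpaceRefl
import Vale.Agent.P069L.TreeLemma

namespace Vale.Agent.P069L

open scoped ENNReal lp

/-! PACKAGE C: the concrete tree in `X`. -/

theorem one_le_norm_eX (n : ℕ) (l : List ℕ) : 1 ≤ ‖eX n l‖ := by
  sorry

theorem norm_bX_le (n : ℕ) (l : List ℕ) : ‖bX n l‖ ≤ 1 := by
  sorry

theorem bX_nil (n : ℕ) : bX n [] = eX n [] := by
  sorry

theorem bX_cons (n a : ℕ) (l : List ℕ) (h : (a :: l).length ≤ n) :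
    bX n (a :: l) = eX n (a :: l) + bX n l := by
  sorry

theorem eX_weakly_null (n : ℕ) (l : List ℕ) (φ : StrongDual ℝ X) :
    Filter.Tendsto (fun j : ℕ => φ (eX n (j :: l))) Filter.atTop (nhds 0) := by
  sorry

theorem X_not_AUC (N : X → ℝ) (hN : IsEquivNorm N) : ¬ IsAUC N :=
  no_AUC_of_trees eX bX (fun n l _ => one_le_norm_eX n l) (fun n l _ φ => eX_weakly_null n l φ)
    bX_nil bX_cons (fun n l _ => norm_bX_le n l) N hN

theorem X_not_finiteDimensional : ¬ FiniteDimensional ℝ X := by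
  sorry

end Vale.Agent.P069L
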